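import Vale.Agent.P329.H157.Lang
import Mathlib.Topology.ContinuousOn
import Mathlib.Topology.Instances.ZMod

/-! # P329: finite p-groups (helper962's proof), interface.

All words are lists NEWEST LETTER FIRST: `v.tail` is `v` without its last letter, `s ++ c` is
`c` followed by `s`. -/

namespace Vale.Agent.P329.Nil

open H259 (pw)
open H157

variable {α : Type} {p : ℕ}

/-- total function with star-free fibres -/
def SFun (F : List α → ZMod p) : Prop := ∀ a, SH 0 {s | F s = a}

/-- running sum -/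
def N (f : List α → ZMod p) : List α → ZMod p
  | [] => 0
  | x :: v => N f v + f (x :: v)

/-- `k * G` : one more mark, weight `k`, at the right of everything counted by `G` -/
def star (k G : List α → ZMod p) : List α → ZMod p
  | [] => 0
  | x :: v => star k G v + k (x :: v) * G v

/-- all level sets have height at most one -/
def Hh (G : List α → ZMod p) : Prop := ∀ a, SH 1 {v | G v = a}

/-! ### code data -/

/-- first cuts and code words -/
structure CD (α : Type) where
  I : Set (List α)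
  D : Set (List α)

namespace CD

/-- products of `n` code words -/
def Dn (cd : CD α) : ℕ → Set (List α)
  | 0 => {[]}
  | n + 1 => cat (cd.Dn n) cd.D

/-- the cuts: a first cut followed by code words -/
def Cut (cd : CD α) : Set (List α) := cat (kst cd.D) cd.I

/-- tails: words without code word at the old end -/
def V (cd : CD α) : Set (List α) := {t | ∀ s d, d ∈ cd.D → t ≠ s ++ d}

/-- `n` code words and a tail -/
def DV (cd : CD α) (n : ℕ) : Set (List α) := cat cd.V (cd.Dn n)

/-- words with at most `n` cuts -/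
def In (cd : CD α) (n : ℕ) : Set (List α) :=
  {v | (∀ s i, i ∈ cd.I → v ≠ s ++ i) ∨ ∃ j, j < n ∧ ∃ s ∈ cd.DV j, ∃ i ∈ cd.I, v = s ++ i}

structure Ok (cd : CD α) : Prop where
  sfI : SH 0 cd.I
  sfD : SH 0 cd.D
  neI : [] ∉ cd.I
  neD : [] ∉ cd.D
  preD : ∀ d d' t t', d ∈ cd.D → d' ∈ cd.D → t ++ d = t' ++ d' → d = d'
  preI : ∀ d d' t t', d ∈ cd.I → d' ∈ cd.I → t ++ d = t' ++ d' → d = d'

end CD

/-- `G` is a star-free function of the newest `n` code words and the tail -/
def LL (cd : CD α) (n : ℕ) (G : List α → ZMod p) : Prop :=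
  ∃ F F0 : List α → ZMod p, SFun F ∧ SFun F0 ∧
    (∀ c ∈ cd.Cut, ∀ s ∈ cd.DV n, G (s ++ c) = F s) ∧ ∀ v ∈ cd.In n, G v = F0 v

/-- local functions -/
def L (cd : CD α) (G : List α → ZMod p) : Prop := ∃ n, LL cd n G

/-- labels of memory `n` -/
def Lab (cd : CD α) (n : ℕ) (G : List α → ZMod p) : Prop :=
  LL cd n G ∧ ∀ v, v ∉ cd.Cut → G v = 0

/-- unit: `h` is the plain label with values `u` on the code words, never of sum 0 on the
hidden periodic words -/
structure Un (cd : CD α) (u h : List α → ZMod p) : Prop where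
  sf : SFun u
  lab : Lab cd 1 h
  val : ∀ c ∈ cd.Cut, ∀ d ∈ cd.D, h (d ++ c) = u d
  ch : ∀ (v : List α) (j : ℕ) (X : List (List α)), 2 ≤ j → (∀ x ∈ X, x ∈ cd.D) →
    X.flatten = pw v j → (∀ i, 1 ≤ i → i < j → pw v i ∉ kst cd.D) → (X.map u).sum ≠ 0

/-- charge: unit without zeros -/
structure Chg (cd : CD α) (u h : List α → ZMod p) : Prop extends Un cd u h where
  nzD : ∀ d ∈ cd.D, u d ≠ 0
  nz : ∀ c ∈ cd.Cut, h c ≠ 0

/-- return words of the walk with steps `u` (last step nonzero, relative height 0, first time) -/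
def Ret (D : Set (List α)) (u : List α → ZMod p) : Set (List α) :=
  {r | ∃ (d : List α) (X : List (List α)), d ∈ D ∧ (∀ x ∈ X, x ∈ D) ∧ r = d ++ X.flatten ∧ u d ≠ 0 ∧
    u d + (X.map u).sum = 0 ∧
    ∀ Z e Y, X = Z ++ e :: Y → ¬ (u e ≠ 0 ∧ u e + (Y.map u).sum = 0)}

/-- last step of a product of code words -/
def LastStep (D : Set (List α)) (u : List α → ZMod p) (r : List α) (a : ZMod p) : Prop :=
  ∃ (d : List α) (X : List (List α)), d ∈ D ∧ (∀ x ∈ X, x ∈ D) ∧ r = d ++ X.flatten ∧ a = u d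

/-- first step of a product of code words -/
def FirstStep (D : Set (List α)) (u : List α → ZMod p) (r : List α) (a : ZMod p) : Prop :=
  ∃ (X : List (List α)) (d : List α), d ∈ D ∧ (∀ x ∈ X, x ∈ D) ∧ r = X.flatten ++ d ∧ a = u d

/-- the code data of the visits of height `ρ` by nonzero steps -/
def ret (cd : CD α) (u h : List α → ZMod p) (ρ : ZMod p) : CD α where
  I := {c | (c ∈ cd.Cut ∧ h c ≠ 0 ∧ N h c = ρ) ∧
    ∀ s c', c = s ++ c' → s ≠ [] → ¬ (c' ∈ cd.Cut ∧ h c' ≠ 0 ∧ N h c' = ρ)}
  D := Ret cd.D u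

/-! ### texts -/

/-- left infinite texts with cut flags, index 0 is the newest letter -/
abbrev Tx (α : Type) := ℕ → α × Bool

def sh (x : Tx α) : Tx α := fun i => x (i + 1)

/-- the newest `J` letters of `v` and their cut flags are those of `P` -/
def At (cd : CD α) (P : Tx α) (J : ℕ) (v : List α) : Prop :=
  J ≤ v.length ∧ ∀ j < J, (v.drop j).head? = some (P j).1 ∧ (v.drop j ∈ cd.Cut ↔ (P j).2 = true)

/-- realised texts -/
def Real (cd : CD α) (P : Tx α) : Prop := ∀ J, ∃ v, At cd P J v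

/-- localised heredity of the marks -/
def R (cd : CD α) : (List α → ZMod p) → List (Tx α) → Prop
  | G, [] => Hh G
  | G, P :: Ps => ∃ J, ∀ k : List α → ZMod p, L cd k → (∀ v, k v ≠ 0 → At cd P J v) →
      R cd (star k G) Ps

/-- limit of a local function along a text -/
def Lim (cd : CD α) (G : List α → ZMod p) (x : Tx α) (a : ZMod p) : Prop :=
  ∃ J, ∀ v, At cd x J v → G v = a

/-- minimal zone of the realised text `P` -/
structure Zn [TopologicalSpace α] (cd : CD α) (P : Tx α) (M : Set (Tx α)) : Prop where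
  real : Real cd P
  closed : IsClosed M
  ne : M.Nonempty
  inv : ∀ x ∈ M, sh x ∈ M
  min : ∀ C ⊆ M, IsClosed C → C.Nonempty → (∀ x ∈ C, sh x ∈ C) → C = M
  adh : ∀ x ∈ M, ∀ J n, ∃ i, n ≤ i ∧ ∀ j < J, P (i + j) = x j
  cut : ∃ x ∈ M, (x 0).2 = true

/-- `G` is a coboundary on `M` -/
def Cob [TopologicalSpace α] (cd : CD α) (G : List α → ZMod p) (M : Set (Tx α)) : Prop :=
  ∃ ψ : Tx α → ZMod p, ContinuousOn ψ M ∧ ∀ x ∈ M, Lim cd G x (ψ x - ψ (sh x))

/-- `G` vanishes on `M` -/
def Zer (cd : CD α) (G : List α → ZMod p) (M : Set (Tx α)) : Prop := ∀ x ∈ M, Lim cd G x 0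

/-- `G` is a clock on `M` -/
def Clk (cd : CD α) (G : List α → ZMod p) (M : Set (Tx α)) : Prop :=
  ∀ x ∈ M, Lim cd G x 0 ∨ Lim cd G x 1

/-- the status of the charge on a zone -/
def St [TopologicalSpace α] (cd : CD α) (w : List α → ZMod p) (M : Set (Tx α)) : Prop :=
  ¬ Cob cd w M ∨ Clk cd w M

/-- the strand of height `s` of the text `P` for the walk `h` and the root `ρ` -/
def strandH (hh : Tx α → ZMod p) (s : ZMod p) (P : Tx α) (i : ℕ) : ZMod p :=
  s - ∑ j ∈ Finset.range i, hh (sh^[j] P)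

open Classical in
noncomputable def strand (hh : Tx α → ZMod p) (ρ s : ZMod p) (P : Tx α) : Tx α := fun i =>
  ((P i).1, (P i).2 && decide (hh (sh^[i] P) ≠ 0 ∧ strandH hh s P i = ρ))

/-- the letters -/
def cd0 (α : Type) : CD α := ⟨{v | v.length = 1}, {v | v.length = 1}⟩

/-- iterated marks with weights in the list (outermost first) -/
def chain : List (List α → ZMod p) → List α → ZMod p
  | [] => fun _ => 1
  | k :: ks => star k (chain ks)

end Vale.Agent.P329.Nil
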