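import Vale.Agent.P329.N.Defs

/-! # P329: rows of the proof (literal statements). -/

namespace Vale.Agent.P329.Nil

open H259 (pw)
open H157

open Classical in
/-- restriction to a set -/
noncomputable def res {α : Type} {p : ℕ} (C : Set (List α)) (f : List α → ZMod p) :
    List α → ZMod p := fun v => if v ∈ C then f v else 0

open Classical in
/-- a level of the walk -/
noncomputable def lev {α : Type} {p : ℕ} (X : List α → ZMod p) (ρ : ZMod p)
    (f : List α → ZMod p) : List α → ZMod p := fun v => if X v = ρ then f v else 0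

/-- `θ_ρ(c) = (g(c)/w(c)) ([X(c) = ρ] - [X(c⁻) = ρ])` -/
noncomputable def theta {α : Type} {p : ℕ} (w g : List α → ZMod p) (ρ : ZMod p) :
    List α → ZMod p := fun v =>
  (g v * (w v)⁻¹) * ((if N w v = ρ then 1 else 0) - (if N w v.tail = ρ then 1 else 0))

/-- limit function -/
noncomputable def evl {α : Type} {p : ℕ} (cd : CD α) (G : List α → ZMod p) (x : Tx α) : ZMod p :=
  open Classical in if h : ∃ a, Lim cd G x a then h.choose else 0

/-- infinitely many cuts -/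
def Inf {α : Type} (x : Tx α) : Prop := ∀ n, ∃ i, n ≤ i ∧ (x i).2 = true

/-- what a strand zone inherits; `M'` is any zone with the description of E2 -/
def Over {α : Type} {p : ℕ} [TopologicalSpace α] (cd : CD α) (h : List α → ZMod p) (ρ : ZMod p)
    (M M' : Set (Tx α)) : Prop :=
  ∃ A : Set (Tx α × ZMod p), IsClosed A ∧ A.Nonempty ∧ (∀ z ∈ A, z.1 ∈ M) ∧
    (∀ z ∈ A, (sh z.1, z.2 - evl cd h z.1) ∈ A) ∧
    (¬ Cob cd h M → A = {z | z.1 ∈ M}) ∧
    M' = (fun z : Tx α × ZMod p => strand (evl cd h) ρ z.2 z.1) '' A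

section rows

variable (α : Type) (p : ℕ)

/-! ### A: codes -/

/-- A1 (294): the return code is a star-free prefix code. -/
def RowA1 : Prop := ∀ (cd : CD α) (u h : List α → ZMod p) (ρ : ZMod p), cd.Ok → Un cd u h →
  (ret cd u h ρ).Ok

/-- A2: its cuts. -/
def RowA2 : Prop := ∀ (cd : CD α) (u h : List α → ZMod p) (ρ : ZMod p), cd.Ok → Un cd u h →
  ∀ c, c ∈ (ret cd u h ρ).Cut ↔ (c ∈ cd.Cut ∧ h c ≠ 0 ∧ N h c = ρ)

/-- A3: the last step is a charge of the return code. -/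
def RowA3 : Prop := ∀ (cd : CD α) (u h : List α → ZMod p) (ρ : ZMod p), cd.Ok → Un cd u h →
  ∃ u', Chg (ret cd u h ρ) u' (res (ret cd u h ρ).Cut h) ∧ ∀ r ∈ Ret cd.D u, LastStep cd.D u r (u' r)

/-- A4: local functions stay local. -/
def RowA4 : Prop := ∀ (cd : CD α) (u h G : List α → ZMod p) (ρ : ZMod p), cd.Ok → Un cd u h →
  L cd G → L (ret cd u h ρ) G

/-- A5: the walk becomes local. -/
def RowA5 : Prop := ∀ (cd : CD α) (u h : List α → ZMod p) (ρ : ZMod p), cd.Ok → Un cd u h →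
  L (ret cd u h ρ) (N h)

/-- A6: memory drops at an arrival level of a charge. -/
def RowA6 : Prop := ∀ (cd : CD α) (u w g : List α → ZMod p) (ρ : ZMod p) (n : ℕ), cd.Ok →
  Chg cd u w → Lab cd (n + 2) g → Lab (ret cd u w ρ) (n + 1) (lev (N w) ρ g)

/-- A7: null splitting of a plain label. -/
def RowA7 : Prop := ∀ (cd : CD α) (u w g : List α → ZMod p) (ρ : ZMod p), cd.Ok →
  Chg cd u w → Lab cd 1 g → ∃ φ pend u2 : List α → ZMod p,
    Lab (ret cd u w ρ) 1 φ ∧ L (ret cd u w ρ) pend ∧ pend [] = 0 ∧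
    (∀ c ∈ (ret cd u w ρ).Cut, pend c = 0) ∧
    (∀ x v, theta w g ρ (x :: v) = - φ (x :: v) - pend (x :: v) + pend v) ∧
    Un (ret cd u w ρ) u2 (fun v => res (ret cd u w ρ).Cut w v + φ v)

/-- A8: the letters. -/
def RowA8 : Prop := (cd0 α).Ok ∧
  Chg (cd0 α) (fun v => if v.length = 1 then (1 : ZMod p) else 0)
    (fun v => if v = [] then (0 : ZMod p) else 1)

/-! ### B: closure of the class `L` -/

def RowB1 : Prop := ∀ (cd : CD α), cd.Ok →
  (∀ a : ZMod p, L cd (fun _ => a)) ∧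
  (∀ F G : List α → ZMod p, L cd F → L cd G → L cd (fun v => F v + G v)) ∧
  (∀ F G : List α → ZMod p, L cd F → L cd G → L cd (fun v => F v * G v)) ∧
  (∀ G : List α → ZMod p, L cd G → L cd (fun v => G v.tail)) ∧
  (∀ f : Option α → ZMod p, L cd (fun v => f v.head?)) ∧
  L cd (res cd.Cut (fun _ => (1 : ZMod p))) ∧
  (∀ (G : List α → ZMod p) (n : ℕ), Lab cd n G → Lab cd (n + 1) G)

/-- composition with a finite function, and the support indicator -/
def RowB2 : Prop := ∀ (cd : CD α), cd.Ok → ∀ (G : List α → ZMod p) (f : ZMod p → ZMod p),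
  L cd G → L cd (fun v => f (G v))

/-- B3: value at the last cut (0 before the first cut) -/
def RowB3 : Prop := ∀ (cd : CD α), cd.Ok → ∀ G : List α → ZMod p, L cd G →
  ∃ G' : List α → ZMod p, L cd G' ∧ (∀ c ∈ cd.Cut, G' c = G c) ∧
    (∀ x v, x :: v ∉ cd.Cut → G' (x :: v) = G' v) ∧ G' [] = 0

/-- B4: window indicators -/
def RowB4 : Prop := ∀ (cd : CD α), cd.Ok → ∀ (P : Tx α) (J : ℕ),
  L cd (res {v | At cd P J v} (fun _ => (1 : ZMod p)))

/-- B5: functions of short words -/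
def RowB5 : Prop := ∀ (cd : CD α), cd.Ok → ∀ (G : List α → ZMod p) (J : ℕ),
  (∀ v, J ≤ v.length → G v = 0) → L cd G

/-- B6: local functions have height at most one -/
def RowB6 : Prop := ∀ (cd : CD α), cd.Ok → ∀ G : List α → ZMod p, L cd G → Hh G

/-- B7: closure of `Hh` -/
def RowB7 : Prop :=
  (∀ F G : List α → ZMod p, Hh F → Hh G → Hh (fun v => F v + G v)) ∧
  (∀ F G : List α → ZMod p, Hh F → Hh G → Hh (fun v => F v * G v)) ∧
  (∀ a : ZMod p, Hh (fun _ : List α => a)) ∧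
  (∀ (c : List α → ZMod p) (J : ℕ), (∀ s z : List α, z.length = J → c (s ++ z) = c z) → Hh c)

/-! ### C: sums of local functions supported near the cuts -/

def RowC : Prop := ∀ (cd : CD α), cd.Ok → ∀ (f : List α → ZMod p) (J : ℕ), L cd f →
  (∀ v, f v ≠ 0 → ∃ j < J, v.drop j ∈ cd.Cut) →
  ∃ g' G' : List α → ZMod p, (∃ n, Lab cd n g') ∧ L cd G' ∧ ∀ v, N f v = N g' v + G' v

variable [TopologicalSpace α]

/-! ### D: limits -/

def RowD1 : Prop := ∀ (cd : CD α), cd.Ok → ∀ (G : List α → ZMod p) (x : Tx α), L cd G →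
  Real cd x → Inf x → ∃ a, Lim cd G x a

/-- D2: zones -/
def RowD2 : Prop := ∀ (cd : CD α) (P : Tx α) (M : Set (Tx α)), cd.Ok → Zn cd P M →
  (∀ x ∈ M, Real cd x ∧ Inf x) ∧ Inf P ∧ ∀ n, Real cd (sh^[n] P)

/-- D3: existence of zones over the letters -/
def RowD3 : Prop := ∀ P : Tx α, Real (cd0 α) P → ∃ M, Zn (cd0 α) P M

/-! ### E: strands -/

/-- E1: words near `P` with height `s` are near the strand. -/
def RowE1 : Prop := ∀ (cd : CD α) (u h : List α → ZMod p) (ρ s : ZMod p) (P : Tx α), cd.Ok →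
  Un cd u h → Real cd P → Inf P → ∀ J, ∃ J', ∀ v, At cd P J' v → N h v = s →
    At (ret cd u h ρ) (strand (evl cd h) ρ s P) J v

/-- E2: the zone of a realised strand, if the walk moves on the zone. -/
def RowE2 : Prop := ∀ (cd : CD α) (u h : List α → ZMod p) (ρ s : ZMod p) (P : Tx α)
  (M : Set (Tx α)), cd.Ok → Un cd u h → Zn cd P M →
  Real (ret cd u h ρ) (strand (evl cd h) ρ s P) →
  (¬ Cob cd h M ∨ (Clk cd h M ∧ ¬ Zer cd h M)) →
  ∃ M', Zn (ret cd u h ρ) (strand (evl cd h) ρ s P) M' ∧ Over cd h ρ M M'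

/-- E3: words near the strand of height `s` are near `x` and have height `s`. -/
def RowE3 : Prop := ∀ (cd : CD α) (u h : List α → ZMod p) (ρ s : ZMod p) (x : Tx α), cd.Ok →
  Un cd u h → Real cd x → Inf x → Inf (strand (evl cd h) ρ s x) →
  ∀ J, ∃ J', ∀ v, At (ret cd u h ρ) (strand (evl cd h) ρ s x) J' v → At cd x J v ∧ N h v = s

/-- E4: status of the last step charge: non-coboundary and clock are inherited. -/
def RowE4 : Prop := ∀ (cd : CD α) (u h : List α → ZMod p) (ρ s : ZMod p) (P : Tx α)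
  (M M' : Set (Tx α)), cd.Ok → Un cd u h → Zn cd P M →
  Zn (ret cd u h ρ) (strand (evl cd h) ρ s P) M' → Over cd h ρ M M' →
  (¬ Cob cd h M → ¬ Cob (ret cd u h ρ) (res (ret cd u h ρ).Cut h) M') ∧
  (Clk cd h M → Clk (ret cd u h ρ) (res (ret cd u h ρ).Cut h) M')

/-- E5: the perturbed charge is no coboundary over a zone where the charge is none (fibre sums). -/
def RowE5 : Prop := ∀ (cd : CD α) (u w g φ pend : List α → ZMod p) (ρ s : ZMod p) (P : Tx α)
  (M M' : Set (Tx α)), cd.Ok → Chg cd u w → Lab cd 1 g → Zn cd P M →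
  Zn (ret cd u w ρ) (strand (evl cd w) ρ s P) M' → Over cd w ρ M M' →
  Lab (ret cd u w ρ) 1 φ → L (ret cd u w ρ) pend → pend [] = 0 →
  (∀ x v, theta w g ρ (x :: v) = - φ (x :: v) - pend (x :: v) + pend v) →
  ¬ Cob cd w M → ¬ Cob (ret cd u w ρ) (fun v => res (ret cd u w ρ).Cut w v + φ v) M'

/-- E6: vanishing labels stay vanishing. -/
def RowE6 : Prop := ∀ (cd : CD α) (u w g : List α → ZMod p) (ρ s : ZMod p) (P : Tx α)
  (M M' : Set (Tx α)), cd.Ok → Chg cd u w → L cd g → Zn cd P M →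
  Zn (ret cd u w ρ) (strand (evl cd w) ρ s P) M' → Over cd w ρ M M' → Zer cd g M →
  Zer (ret cd u w ρ) (lev (N w) ρ g) M' ∧
  ∀ φ pend : List α → ZMod p, Lab cd 1 g → Lab (ret cd u w ρ) 1 φ → L (ret cd u w ρ) pend →
    pend [] = 0 → (∀ c ∈ (ret cd u w ρ).Cut, pend c = 0) → (∀ x v, theta w g ρ (x :: v) = - φ (x :: v) - pend (x :: v) + pend v) →
    Zer (ret cd u w ρ) φ M'

/-! ### F: gauge -/

def RowF : Prop := ∀ (cd : CD α) (φ : List α → ZMod p) (n : ℕ) (Q : List (Tx α × Set (Tx α)))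
  (q : Tx α × Set (Tx α)), cd.Ok → Lab cd n φ → (∀ q ∈ Q, Zn cd q.1 q.2) → q ∈ Q →
  Cob cd φ q.2 → ∃ φ' Ψ : List α → ZMod p, (∃ n, Lab cd n φ') ∧ L cd Ψ ∧
    (∀ v, N φ v = N φ' v + Ψ v) ∧ Zer cd φ' q.2 ∧ ∀ q' ∈ Q, Zer cd φ q'.2 → Zer cd φ' q'.2

/-! ### G: calculus of `R` -/

def RowG1 : Prop := ∀ (cd : CD α) (Ps : List (Tx α)), cd.Ok →
  (∀ F G : List α → ZMod p, R cd F Ps → R cd G Ps → R cd (fun v => F v + G v) Ps) ∧
  (∀ (F : List α → ZMod p) (a : ZMod p), R cd F Ps → R cd (fun v => a * F v) Ps)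

/-- G2: it is enough to treat all strands. -/
def RowG2 : Prop := ∀ (cd : CD α) (u h G : List α → ZMod p) (ρ : ZMod p) (Ps : List (Tx α)),
  cd.Ok → Un cd u h → (∀ P ∈ Ps, Real cd P ∧ Inf P) →
  (∀ ss : List (ZMod p), ss.length = Ps.length →
    R (ret cd u h ρ) G (List.zipWith (fun s P => strand (evl cd h) ρ s P) ss Ps)) →
  R cd G Ps

/-- G3: nothing happens near a text which is not realised. -/
def RowG3 : Prop := ∀ (cd : CD α) (G : List α → ZMod p) (Ps : List (Tx α)), cd.Ok →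
  (∃ P ∈ Ps, ¬ Real cd P) → R cd G Ps

/-- H0: local functions over covered zones, from the main statement for fewer marks. -/
def RowH0 : Prop := ∀ (cd : CD α) (Q : List (Tx α × Set (Tx α))), cd.Ok →
  (∀ q ∈ Q, Zn cd q.1 q.2) →
  (∀ (Q' : List (Tx α × Set (Tx α))) (g : List α → ZMod p) (n : ℕ), Q'.length < Q.length →
    (∀ q ∈ Q', q ∈ Q) → Lab cd n g → R cd (N g) (Q'.map Prod.fst)) →
  ∀ G : List α → ZMod p, L cd G → R cd G (Q.map Prod.fst)

/-! ### H: main induction -/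

def RowH : Prop := ∀ (Q : List (Tx α × Set (Tx α))) (cd : CD α) (u w g : List α → ZMod p) (n : ℕ),
  cd.Ok → Chg cd u w → Lab cd n g → (∀ q ∈ Q, Zn cd q.1 q.2 ∧ St cd w q.2) →
  R cd (N g) (Q.map Prod.fst)

/-! ### I: all chain functions -/

/-- I1: compactness in one mark: a function good near every realised text is good. -/
def RowI1 : Prop := ∀ (G : List α → ZMod p) (Ps : List (Tx α)) (k : List α → ZMod p),
  (∀ P, Real (cd0 α) P → R (cd0 α) G (P :: Ps)) → L (cd0 α) k →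
  ∃ J0, ∀ J, J0 ≤ J → R (cd0 α) (star (res {v | J ≤ v.length} k) G) Ps

/-- I2: the end of the core -/
def RowI2 : Prop := ∀ ks : List (List α → ZMod p), (∀ k ∈ ks, L (cd0 α) k) → Hh (chain ks)

/-- I3: for the algebra: words in reading order, letter weights -/
def RowI3 : Prop := ∀ (l : List (Option α → ZMod p)) (a : ZMod p),
  SH 1 {w : List α | chain (l.map fun f v => f v.head?) w.reverse = a}

end rows

end Vale.Agent.P329.Nil
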